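import Mathlib

/-! Vanishing of a Hattori-Stallings coefficient when the centralizer has a Lipschitz character. -/

namespace Vale.Agent.Results.P184.Centralizer

open scoped ENNReal
open Filter Topology

variable {G : Type*} [Group G] {ι : Type} [Fintype ι] [DecidableEq ι]

noncomputable abbrev B (G : Type*) (ι : Type) := lp (fun _ : G × ι => ℂ) ∞

open Classical in
noncomputable def ker (A : Module.End ℂ (B G ι)) (x y : G × ι) : ℂ := A (lp.single ∞ y 1) x

theorem row (a : G → ℝ≥0∞) (k : G) :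
    ∑' y : G × ι, a (k / y.1) = Fintype.card ι * ∑' h, a h := by
  rw [ENNReal.tsum_prod']
  simp only [tsum_fintype, Finset.sum_const, Finset.card_univ, nsmul_eq_mul, ENNReal.tsum_mul_left]
  congr 1
  exact (Equiv.divLeft k).tsum_eq a

structure Gd (g : G) (A : Module.End ℂ (B G ι)) (a : G → ℝ≥0∞) : Prop where
  act : ∀ (φ : B G ι) x, A φ x = ∑' y, ker A x y * φ y
  dom : ∀ x y, ‖ker A x y‖ₑ ≤ a (x.1 / y.1)
  inv : ∀ z, Commute g z → ∀ k i l j, ker A (k * z, i) (l * z, j) = ker A (k, i) (l, j)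

def Good (g : G) (A : Module.End ℂ (B G ι)) (c : ℝ≥0∞) : Prop :=
  c ≠ ∞ ∧ ∃ a, Fintype.card ι * ∑' h, a h ≤ c ∧ Gd g A a

theorem bd (φ : B G ι) (y : G × ι) : ‖φ y‖ₑ ≤ ‖φ‖ₑ := by
  have := lp.norm_apply_le_norm ENNReal.top_ne_zero φ y
  rwa [← ofReal_norm_eq_enorm, ← ofReal_norm_eq_enorm, ENNReal.ofReal_le_ofReal_iff (norm_nonneg _)]

theorem rowb {K : G × ι → G × ι → ℂ} {a : G → ℝ≥0∞} (h : ∀ x y, ‖K x y‖ₑ ≤ a (x.1 / y.1))
    (φ : B G ι) (x : G × ι) : ∑' y, ‖K x y * φ y‖ₑ ≤ (Fintype.card ι * ∑' h, a h) * ‖φ‖ₑ := by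
  rw [← row a x.1, ← ENNReal.tsum_mul_right]
  exact ENNReal.tsum_le_tsum fun y => by rw [enorm_mul]; exact mul_le_mul' (h x y) (bd φ y)

theorem rows {K : G × ι → G × ι → ℂ} {a : G → ℝ≥0∞} (h : ∀ x y, ‖K x y‖ₑ ≤ a (x.1 / y.1))
    (ha : Fintype.card ι * ∑' h, a h ≠ ∞) (φ : B G ι) (x : G × ι) :
    Summable fun y => K x y * φ y :=
  .of_enorm (ne_top_of_le_ne_top (ENNReal.mul_ne_top ha enorm_ne_top) (rowb h φ x))

noncomputable def op {K : G × ι → G × ι → ℂ} {a : G → ℝ≥0∞}
    (h : ∀ x y, ‖K x y‖ₑ ≤ a (x.1 / y.1)) (ha : Fintype.card ι * ∑' h, a h ≠ ∞) :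
    Module.End ℂ (B G ι) where
  toFun φ := ⟨fun x => ∑' y, K x y * φ y, memℓp_infty
    ⟨((Fintype.card ι * ∑' h, a h) * ‖φ‖ₑ).toReal, by
      rintro _ ⟨x, rfl⟩
      have := ENNReal.toReal_mono (ENNReal.mul_ne_top ha enorm_ne_top)
        (enorm_tsum_le_tsum_enorm.trans (rowb h φ x))
      rwa [toReal_enorm] at this⟩⟩
  map_add' φ ψ := by
    ext x
    show ∑' y, K x y * (φ y + ψ y) = ∑' y, K x y * φ y + ∑' y, K x y * ψ y
    simp only [mul_add]
    exact (rows h ha φ x).tsum_add (rows h ha ψ x)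
  map_smul' c φ := by
    ext x
    show ∑' y, K x y * (c * φ y) = c * ∑' y, K x y * φ y
    simp only [mul_left_comm _ c, tsum_mul_left]

theorem ker_op {K : G × ι → G × ι → ℂ} {a : G → ℝ≥0∞}
    (h : ∀ x y, ‖K x y‖ₑ ≤ a (x.1 / y.1)) (ha : Fintype.card ι * ∑' h, a h ≠ ∞) :
    ker (op h ha) = K := by
  classical
  funext x y
  show ∑' w, K x w * (lp.single ∞ y (1 : ℂ) : B G ι) w = K x y
  rw [tsum_eq_single y fun w hw => by rw [lp.single_apply_ne _ _ _ hw, mul_zero],
    lp.single_apply_self, mul_one]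

variable {g : G} {A A' : Module.End ℂ (B G ι)} {c c' : ℝ≥0∞}

theorem Gd.km {a : G → ℝ≥0∞} (h : Gd g A a) (x y : G × ι) :
    ker (A * A') x y = ∑' w, ker A x w * ker A' w y := h.act _ x

theorem Good.mul (h : Good g A c) (h' : Good g A' c') : Good g (A * A') (c * c') := by
  obtain ⟨c0, a, ha, h⟩ := h
  obtain ⟨c0', a', ha', h'⟩ := h'
  refine ⟨ENNReal.mul_ne_top c0 c0', fun k => Fintype.card ι * ∑' u, a (k / u) * a' u, ?_,
    fun φ x => ?_, fun x y => ?_, fun z hz k i l j => ?_⟩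
  · refine le_trans (le_of_eq ?_) (mul_le_mul' ha ha')
    rw [ENNReal.tsum_mul_left, ENNReal.tsum_comm]
    simp only [ENNReal.tsum_mul_right, fun u => (Equiv.divRight u).tsum_eq a |>.trans rfl,
      show ∀ u, ∑' k, a (k / u) = ∑' k, a k from fun u => (Equiv.divRight u).tsum_eq a,
      ENNReal.tsum_mul_left]
    ring
  · have s : Summable (Function.uncurry fun w y => ker A x w * (ker A' w y * φ y)) := by
      refine .of_enorm (ne_top_of_le_ne_top (b := c * (c' * ‖φ‖ₑ))
        (ENNReal.mul_ne_top c0 (ENNReal.mul_ne_top c0' enorm_ne_top)) ?_)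
      rw [ENNReal.tsum_prod']
      refine le_trans (ENNReal.tsum_le_tsum (g := fun w => a (x.1 / w.1) * (c' * ‖φ‖ₑ))
        fun w => ?_) ?_
      · simp only [Function.uncurry, enorm_mul (ker A x w), ENNReal.tsum_mul_left]
        exact mul_le_mul' (h.dom _ _) ((rowb h'.dom φ w).trans (mul_le_mul' ha' le_rfl))
      · rw [ENNReal.tsum_mul_right, row]
        exact mul_le_mul' ha le_rfl
    rw [Module.End.mul_apply, h.act]
    simp only [h'.act φ, h.km, ← tsum_mul_left, ← tsum_mul_right, mul_assoc]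
    exact s.tsum_comm.symm
  · rw [h.km]
    refine enorm_tsum_le_tsum_enorm.trans (le_trans (ENNReal.tsum_le_tsum
      (g := fun w => a (x.1 / w.1) * a' (w.1 / y.1)) fun w => ?_) (le_of_eq ?_))
    · rw [enorm_mul]; exact mul_le_mul' (h.dom _ _) (h'.dom _ _)
    · rw [ENNReal.tsum_prod']
      simp only [tsum_fintype, Finset.sum_const, Finset.card_univ, nsmul_eq_mul,
        ENNReal.tsum_mul_left]
      congr 1
      rw [← (Equiv.divRight y.1).tsum_eq fun u => a (x.1 / y.1 / u) * a' u]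
      simp
  · rw [h.km, h.km, ← ((Equiv.mulRight z).prodCongr (Equiv.refl ι)).tsum_eq]
    exact tsum_congr fun w => congrArg₂ _ (h.inv z hz _ _ _ _) (h'.inv z hz _ _ _ _)

theorem ker_sub (x y : G × ι) : ker (A - A') x y = ker A x y - ker A' x y := rfl

theorem Good.sub (h : Good g A c) (h' : Good g A' c') : Good g (A - A') (c + c') := by
  obtain ⟨c0, a, ha, h⟩ := h
  obtain ⟨c0', a', ha', h'⟩ := h'
  refine ⟨ENNReal.add_ne_top.2 ⟨c0, c0'⟩, fun k => a k + a' k, ?_,
    fun φ x => ?_, fun x y => ?_, fun z hz k i l j => ?_⟩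
  · rw [ENNReal.tsum_add, mul_add]; exact add_le_add ha ha'
  · show A φ x - A' φ x = _
    simp only [ker_sub, sub_mul]
    rw [h.act, h'.act, (rows h.dom (ne_top_of_le_ne_top c0 ha) φ x).tsum_sub
      (rows h'.dom (ne_top_of_le_ne_top c0' ha') φ x)]
  · exact (enorm_sub_le).trans (add_le_add (h.dom _ _) (h'.dom _ _))
  · rw [ker_sub, ker_sub, h.inv z hz, h'.inv z hz]

theorem Good.one : Good g (1 : Module.End ℂ (B G ι)) (Fintype.card ι) := by
  classical
  have k : ∀ x y : G × ι, ker (1 : Module.End ℂ (B G ι)) x y = if x = y then 1 else 0 := by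
    intro x y
    simp only [ker, Module.End.one_apply]
    split_ifs with h
    · rw [h, lp.single_apply_self]
    · rw [lp.single_apply_ne _ _ _ h]
  refine ⟨ENNReal.natCast_ne_top _, fun h => if h = 1 then 1 else 0, by simp,
    fun φ x => ?_, fun x y => ?_, fun z _ _ _ _ _ => by simp [k]⟩
  · rw [tsum_eq_single x fun y hy => by rw [k, if_neg hy.symm, zero_mul], k, if_pos rfl, one_mul]
    rfl
  · rw [k]
    split_ifs with h1 h2
    · simp
    · exact absurd (by rw [h1, div_self']) h2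
    · simp
    · simp

theorem Good.pow (h : Good g A c) : ∀ n : ℕ, Good g (A ^ (n + 1)) (c ^ (n + 1))
  | 0 => by simpa using h
  | n + 1 => by rw [pow_succ, pow_succ c]; exact (h.pow n).mul h

/-- The conjugacy class. -/
abbrev Cl (g : G) := {x : G // IsConj g x}

noncomputable def s (x : Cl g) : G := (isConj_iff.1 x.2).choose

theorem hs (x : Cl g) : s x * g = x * s x := by
  have := (isConj_iff.1 x.2).choose_spec
  rw [← this, s, inv_mul_cancel_right]

noncomputable def T (g : G) (A : Module.End ℂ (B G ι)) : ℂ :=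
  ∑' p : Cl g × ι, ker A (p.1 * s p.1, p.2) (s p.1, p.2)

theorem Good.tb (h : Good g A c) :
    ∑' p : Cl g × ι, ‖ker A (p.1 * s p.1, p.2) (s p.1, p.2)‖ₑ ≤ c := by
  obtain ⟨-, a, ha, h⟩ := h
  refine le_trans (ENNReal.tsum_le_tsum (g := fun p : Cl g × ι => a p.1) fun p => by
    simpa using h.dom (p.1 * s p.1, p.2) (s p.1, p.2)) (le_trans ?_ ha)
  rw [ENNReal.tsum_prod']
  simp only [tsum_fintype, Finset.sum_const, Finset.card_univ, nsmul_eq_mul, ENNReal.tsum_mul_left]
  exact mul_le_mul' le_rfl (ENNReal.tsum_comp_le_tsum_of_injective Subtype.val_injective a)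

theorem Good.ts (h : Good g A c) :
    Summable fun p : Cl g × ι => ker A (p.1 * s p.1, p.2) (s p.1, p.2) :=
  .of_enorm (ne_top_of_le_ne_top h.1 h.tb)

theorem T_sub (h : Good g A c) (h' : Good g A' c') : T g (A - A') = T g A - T g A' :=
  h.ts.tsum_sub h'.ts

theorem T_neg : T g (-A) = -T g A := tsum_neg

theorem T_eq (h : Good g A c) (h' : Good g A' c') : T g (A * A') =
    ∑' p : (Cl g × ι) × (G × ι), ker A (p.1.1 * s p.1.1, p.1.2) (p.2.1 * s p.1.1, p.2.2) *
      ker A' (p.2.1 * s p.1.1, p.2.2) (s p.1.1, p.1.2) := by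
  obtain ⟨c0, a, ha, h⟩ := h
  obtain ⟨c0', a', ha', h'⟩ := h'
  rw [Summable.tsum_prod]
  · refine tsum_congr fun p => ?_
    rw [h.km, ← ((Equiv.mulRight (s p.1)).prodCongr (Equiv.refl ι)).tsum_eq]
    rfl
  · refine .of_enorm (ne_top_of_le_ne_top (ENNReal.mul_ne_top c0 c0') ?_)
    refine le_trans (ENNReal.tsum_le_tsum (g := fun p : (Cl g × ι) × (G × ι) =>
      a (p.1.1 / p.2.1) * a' p.2.1) fun p => ?_) ?_
    · rw [enorm_mul]
      exact mul_le_mul' (by simpa using h.dom (p.1.1 * s p.1.1, p.1.2) (p.2.1 * s p.1.1, p.2.2))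
        (by simpa using h'.dom (p.2.1 * s p.1.1, p.2.2) (s p.1.1, p.1.2))
    · rw [ENNReal.tsum_prod', ENNReal.tsum_comm]
      refine le_trans (ENNReal.tsum_le_tsum (g := fun w : G × ι => c * a' w.1) fun w => ?_) ?_
      · simp only [ENNReal.tsum_mul_right]
        refine mul_le_mul' (le_trans ?_ ha) le_rfl
        rw [ENNReal.tsum_prod']
        simp only [tsum_fintype, Finset.sum_const, Finset.card_univ, nsmul_eq_mul,
          ENNReal.tsum_mul_left]
        exact mul_le_mul' le_rfl (ENNReal.tsum_comp_le_tsum_of_injective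
          (f := fun x : Cl g => (x : G) / w.1)
          ((div_left_injective (b := w.1)).comp Subtype.val_injective) a)
      · rw [ENNReal.tsum_mul_left, ENNReal.tsum_prod']
        simp only [tsum_fintype, Finset.sum_const, Finset.card_univ, nsmul_eq_mul,
          ENNReal.tsum_mul_left]
        exact mul_le_mul' le_rfl ha'

theorem T_comm (h : Good g A c) (h' : Good g A' c') : T g (A * A') = T g (A' * A) := by
  rw [T_eq h h', T_eq h' h]
  obtain ⟨-, a, -, h⟩ := h
  obtain ⟨-, a', -, h'⟩ := h'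
  let F : (Cl g × ι) × (G × ι) → (Cl g × ι) × (G × ι) := fun p =>
    ((⟨p.2.1 * p.1.1 * p.2.1⁻¹, p.1.1.2.trans (isConj_iff.2 ⟨_, rfl⟩)⟩, p.2.2),
      (p.1.1 * p.2.1⁻¹, p.1.2))
  have hi : Function.Involutive F := fun p => by
    ext <;> simp [F, mul_assoc]
  rw [← hi.toPerm.tsum_eq]
  refine tsum_congr fun ⟨⟨x, i⟩, ⟨u, j⟩⟩ => ?_
  simp only [Function.Involutive.coe_toPerm, F]
  set y : Cl g := ⟨u * x * u⁻¹, x.2.trans (isConj_iff.2 ⟨_, rfl⟩)⟩ with hy
  have e1 := hs x
  have e2 : s y * g = u * x * u⁻¹ * s y := hs y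
  have cz : Commute g ((s y)⁻¹ * u * s x) := by
    show g * _ = _ * g
    rw [mul_assoc _ (s x), e1, ← mul_left_cancel_iff (a := s y), ← mul_assoc, ← mul_assoc,
      ← mul_assoc, e2]
    group
  have k1 := h'.inv _ cz ((x : G) * u⁻¹ * s y) i (s y) j
  have k2 := h.inv _ (cz.mul_right (Commute.refl g).inv_right) (u * x * u⁻¹ * s y) j
    ((x : G) * u⁻¹ * s y) i
  have e3 : s x * g⁻¹ = (x : G)⁻¹ * s x := by
    rw [eq_inv_mul_iff_mul_eq, ← mul_assoc, ← e1, mul_inv_cancel_right]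
  rw [← k1, ← k2, mul_comm]
  congr 2 <;> simp only [Prod.mk.injEq, and_true, mul_assoc, e3, mul_inv_cancel_left,
    inv_mul_cancel_left]

theorem ass {P Q : Module.End ℂ (B G ι)} {d : ℝ≥0∞} (hP : Good g P c) (hQ : Good g Q c')
    (pp : P * P = P) (qq : Q * Q = Q) (hd : Good g (P - Q) d) (d1 : d < 1) : T g P = T g Q := by
  have hB := (Good.one.sub hP).sub hQ
  have e1 : (P - Q) * (P - Q) = 1 - (1 - P - Q) * (1 - P - Q) := by
    simp only [mul_sub, sub_mul, pp, qq, one_mul, mul_one]; abel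
  have e2 : (1 - P - Q) * (P - Q) = -((P - Q) * (1 - P - Q)) := by
    simp only [mul_sub, sub_mul, pp, qq, one_mul, mul_one]; abel
  generalize 1 - P - Q = Y at hB e1 e2
  rw [← sub_eq_zero, ← T_sub hP hQ]
  generalize P - Q = X at hd e1 e2
  have e3 : ∀ n, Y * X ^ (2 * n + 1) = -(X ^ (2 * n + 1) * Y) := fun n => by
    have : Commute Y (X ^ 2) := by
      show _ = _
      rw [sq, ← mul_assoc, e2, neg_mul, mul_assoc, e2, mul_neg, neg_neg, mul_assoc]
    rw [pow_succ, pow_mul, ← mul_assoc, (this.pow_right n).eq, mul_assoc, e2, mul_neg, mul_assoc]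
  have e4 : ∀ n, T g (X ^ (2 * n + 1)) = T g X := fun n => by
    induction n with
    | zero => simp
    | succ n ih =>
      have k := T_comm ((hd.pow (2 * n)).mul hB) hB
      rw [← mul_assoc, e3, neg_mul, T_neg, eq_neg_iff_add_eq_zero, add_self_eq_zero] at k
      rw [show 2 * (n + 1) + 1 = 2 * n + 1 + 2 by ring, pow_add, sq, e1, mul_sub, mul_one,
        ← mul_assoc, T_sub (hd.pow _) (((hd.pow _).mul hB).mul hB), k, sub_zero, ih]
  have e5 : ∀ n, ‖T g X‖ₑ ≤ d ^ n := fun n => by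
    rw [← e4 n]
    exact (enorm_tsum_le_tsum_enorm.trans (hd.pow (2 * n)).tb).trans
      (pow_le_pow_right_of_le_one' d1.le (by omega))
  simpa using ge_of_tendsto' (ENNReal.tendsto_pow_atTop_nhds_zero_of_lt_one d1) e5

theorem lip (g : G) (l χ : G → ℝ) (hl : ∀ a b, l (a * b) ≤ l a + l b)
    (hχ : ∀ a b, Commute g a → Commute g b → χ (a * b) = χ a + χ b)
    (hle : ∀ a, Commute g a → χ a ≤ l a) : ∃ f : G → ℝ, (∀ k k', f k ≤ f k' + l (k / k')) ∧
      ∀ k z, Commute g z → f (k * z) = f k + χ z := by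
  have h1 : χ 1 = 0 := by
    have := hχ 1 1 (.one_right g) (.one_right g)
    rw [mul_one] at this
    linarith
  have hi : ∀ z, Commute g z → χ z⁻¹ = -χ z := fun z hz => by
    have := hχ z z⁻¹ hz hz.inv_right
    rw [mul_inv_cancel, h1] at this
    linarith
  haveI : Nonempty {z // Commute g z} := ⟨⟨1, .one_right g⟩⟩
  have hb : ∀ k, BddBelow (Set.range fun z : {z // Commute g z} => l (k * (z : G)⁻¹) + χ z) :=
    fun k => ⟨-l k⁻¹, by
      rintro _ ⟨z, rfl⟩
      have a1 := hl k⁻¹ (k * (z : G)⁻¹)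
      have a2 := hle _ z.2.inv_right
      rw [inv_mul_cancel_left] at a1
      rw [hi _ z.2] at a2
      show _ ≤ l _ + χ _
      linarith⟩
  set f : G → ℝ := fun k => ⨅ z : {z // Commute g z}, (l (k * (z : G)⁻¹) + χ z) with hf
  have h2 : ∀ k z, Commute g z → f (k * z) ≤ f k + χ z := fun k z hz => by
    rw [← sub_le_iff_le_add]
    refine le_ciInf fun w => ?_
    have := ciInf_le (hb (k * z)) ⟨w * z, w.2.mul_right hz⟩
    simp only [mul_inv_rev, mul_assoc, mul_inv_cancel_left, hχ _ _ w.2 hz] at this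
    simp only [hf, mul_assoc]
    linarith
  refine ⟨f, fun k k' => ?_, fun k z hz => le_antisymm (h2 k z hz) ?_⟩
  · rw [← sub_le_iff_le_add]
    refine le_ciInf fun w => ?_
    have a1 := ciInf_le (hb k) w
    have a2 := hl (k / k') (k' * (w : G)⁻¹)
    rw [← mul_assoc, div_mul_cancel] at a2
    simp only [hf]
    linarith
  · have := h2 (k * z) z⁻¹ hz.inv_right
    rw [mul_inv_cancel_right, hi z hz] at this
    linarith

theorem main (g : G) (l χ : G → ℝ)
    (hl : ∀ a b, l (a * b) ≤ l a + l b)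
    (hχ : ∀ a b, Commute g a → Commute g b → χ (a * b) = χ a + χ b)
    (hle : ∀ a, Commute g a → χ a ≤ l a) (hg : χ g ≠ 0)
    (q : ℕ) (e : Fin q → Fin q → G → ℂ) (hs : ∀ i j, Summable fun h => ‖e i j h‖)
    (he : ∀ i j h, ∑ k, ∑' u, e i k u * e k j (u⁻¹ * h) = e i j h) :
    ∑' x : {x : G // IsConj g x}, ∑ i, e i i x = 0 := by
  obtain ⟨f, f1, f2⟩ := lip g l χ hl hχ hle
  set a : G → ℝ := fun h => ∑ i, ∑ j, ‖e i j h‖ with ha
  have a0 : ∀ h, 0 ≤ a h := fun h => by positivity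
  have as : Summable a := summable_sum fun i _ => summable_sum fun j _ => hs i j
  have al : ∀ i j h, ‖e i j h‖ ≤ a h := fun i j h =>
    (Finset.single_le_sum (f := fun j => ‖e i j h‖) (fun _ _ => norm_nonneg _)
      (Finset.mem_univ j)).trans (Finset.single_le_sum (f := fun i => ∑ j, ‖e i j h‖)
        (fun _ _ => by positivity) (Finset.mem_univ i))
  let K : ℝ → G × Fin q → G × Fin q → ℂ := fun t x y =>
    Complex.exp (Complex.I * (t * (f x.1 - f y.1) : ℝ)) * e x.2 y.2 (x.1 / y.1)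
  have kd : ∀ t x y, ‖K t x y‖ₑ ≤ ENNReal.ofReal (a (x.1 / y.1)) := fun t x y => by
    rw [← ofReal_norm_eq_enorm, norm_mul, Complex.norm_exp_I_mul_ofReal, one_mul]
    exact ENNReal.ofReal_le_ofReal (al _ _ _)
  have af : (Fintype.card (Fin q) : ℝ≥0∞) * ∑' h, ENNReal.ofReal (a h) ≠ ∞ := by
    rw [← ENNReal.ofReal_tsum_of_nonneg a0 as]
    exact ENNReal.mul_ne_top (ENNReal.natCast_ne_top _) ENNReal.ofReal_ne_top
  have gd : ∀ t, Gd g (op (kd t) af) fun h => ENNReal.ofReal (a h) := fun t =>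
    ⟨fun φ x => by rw [ker_op]; rfl, by rw [ker_op]; exact kd t, fun z hz k i l j => by
      simp only [ker_op, K, f2 _ _ hz, mul_div_mul_right_eq_div, add_sub_add_right_eq_sub]⟩
  have go : ∀ t, Good g (op (kd t) af) _ := fun t => ⟨af, _, le_rfl, gd t⟩
  have id : ∀ t, op (kd t) af * op (kd t) af = op (kd t) af := fun t => by
    obtain ⟨-, _, -, h⟩ := (go t).mul (go t)
    ext φ x
    rw [h.act, (gd t).act]
    refine tsum_congr fun y => congrArg (· * _) ?_
    rw [(gd t).km, ker_op]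
    have e1 : ∀ w : G × Fin q, K t x w * K t w y =
        Complex.exp (Complex.I * (t * (f x.1 - f y.1) : ℝ)) *
          (e x.2 w.2 (x.1 / w.1) * e w.2 y.2 ((x.1 / w.1)⁻¹ * (x.1 / y.1))) := fun w => by
      simp only [K]
      rw [mul_mul_mul_comm, ← Complex.exp_add, inv_div, div_mul_div_cancel]
      congr 2
      push_cast
      ring
    simp only [e1, tsum_mul_left, K]
    congr 1
    have e2 : ∀ k, Summable fun u => e x.2 k u * e k y.2 (u⁻¹ * (x.1 / y.1)) := fun k =>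
      .of_norm_bounded ((hs x.2 k).mul_right (∑' h, a h)) fun u => by
        rw [norm_mul]
        exact mul_le_mul_of_nonneg_left ((al _ _ _).trans (as.le_tsum _ fun _ _ => a0 _))
          (norm_nonneg _)
    rw [← he, ← Summable.tsum_finsetSum fun k _ => e2 k, ← (Equiv.divLeft x.1).tsum_eq,
      Summable.tsum_prod]
    · simp only [tsum_fintype, Equiv.divLeft_apply]
    · refine .of_enorm (ne_top_of_le_ne_top
        (ENNReal.mul_ne_top af (ENNReal.ofReal_ne_top (r := ∑' h, a h))) ?_)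
      rw [← row (fun h => ENNReal.ofReal (a h)) x.1, ← ENNReal.tsum_mul_right]
      refine ENNReal.tsum_le_tsum fun w => ?_
      rw [enorm_mul, ← ofReal_norm_eq_enorm, ← ofReal_norm_eq_enorm]
      exact mul_le_mul' (ENNReal.ofReal_le_ofReal (al _ _ _))
        (ENNReal.ofReal_le_ofReal ((al _ _ _).trans (as.le_tsum _ fun _ _ => a0 _)))
  have tr : ∀ t : ℝ, T g (op (kd t) af) =
      Complex.exp (Complex.I * (t * χ g : ℝ)) * ∑' x : Cl g, ∑ i, e i i x := fun t => by
    rw [T, (go t).ts.tsum_prod, ← tsum_mul_left]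
    refine tsum_congr fun x => ?_
    rw [tsum_fintype, Finset.mul_sum]
    refine Finset.sum_congr rfl fun i _ => ?_
    simp only [ker_op, K, mul_div_cancel_right]
    rw [← Centralizer.hs x, f2 _ _ (Commute.refl g), add_sub_cancel_left]
  let b : ℕ → G → ℝ := fun n h => a h * min 2 ((|l h| + |l h⁻¹|) / (n + 1))
  have b0 : ∀ n h, 0 ≤ b n h := fun n h => mul_nonneg (a0 h) (le_min zero_le_two (by positivity))
  have bl : ∀ n h, ‖b n h‖ ≤ a h * 2 := fun n h => by
    rw [Real.norm_of_nonneg (b0 n h)]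
    exact mul_le_mul_of_nonneg_left (min_le_left _ _) (a0 h)
  have t1 : Tendsto (fun n => (q : ℝ) * ∑' h, b n h) atTop (𝓝 (q * ∑' _h : G, (0 : ℝ))) := by
    refine (tendsto_tsum_of_dominated_convergence (as.mul_right 2) (fun h => ?_)
      (.of_forall bl)).const_mul _
    have := ((tendsto_const_nhds (x := (2 : ℝ))).min ((tendsto_const_div_atTop_nhds_zero_nat
      (|l h| + |l h⁻¹|)).comp (tendsto_add_atTop_nat 1))).const_mul (a h)
    simpa [b, Function.comp_def] using this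
  have t2 := (tendsto_const_div_atTop_nhds_zero_nat |χ g|).comp (tendsto_add_atTop_nat 1)
  rw [tsum_zero, mul_zero] at t1
  obtain ⟨n, n1, n2⟩ := ((t1.eventually_lt_const one_pos).and (t2.eventually_lt_const one_pos)).exists
  simp only [Function.comp_def, Nat.cast_add, Nat.cast_one] at n2
  have bs : Summable (b n) := .of_norm_bounded (as.mul_right 2) (bl n)
  have gs : Good g (op (kd 0) af - op (kd (1 / (n + 1))) af) (ENNReal.ofReal (q * ∑' h, b n h)) := by
    obtain ⟨-, _, -, h⟩ := (go 0).sub (go (1 / (n + 1)))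
    refine ⟨ENNReal.ofReal_ne_top, fun h => ENNReal.ofReal (b n h), ?_, h.act, fun x y => ?_, h.inv⟩
    · rw [← ENNReal.ofReal_tsum_of_nonneg (b0 n) bs, ENNReal.ofReal_mul (by positivity)]
      simp
    · rw [ker_sub, ker_op, ker_op, ← ofReal_norm_eq_enorm]
      refine ENNReal.ofReal_le_ofReal ?_
      simp only [K, zero_mul, Complex.ofReal_zero, mul_zero, Complex.exp_zero]
      rw [← sub_mul, norm_mul, mul_comm, norm_sub_rev]
      refine mul_le_mul (al _ _ _) (le_min ?_ ?_) (norm_nonneg _) (a0 _)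
      · refine (norm_sub_le _ _).trans ?_
        rw [Complex.norm_exp_I_mul_ofReal, norm_one]
        norm_num
      · refine Real.norm_exp_I_mul_ofReal_sub_one_le.trans ?_
        rw [Real.norm_eq_abs, abs_mul, abs_of_pos (by positivity), one_div_mul_eq_div]
        refine div_le_div_of_nonneg_right (abs_le.2 ⟨?_, ?_⟩) (by positivity)
        · have := f1 y.1 x.1
          rw [inv_div]
          linarith [le_abs_self (l (y.1 / x.1)), abs_nonneg (l (x.1 / y.1))]
        · linarith [f1 x.1 y.1, le_abs_self (l (x.1 / y.1)), abs_nonneg (l (x.1 / y.1)⁻¹)]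
  have k := ass (go 0) (go _) (id 0) (id _) gs (ENNReal.ofReal_lt_one.2 n1)
  rw [tr, tr] at k
  by_contra hne
  have k2 := congrArg Complex.re (mul_right_cancel₀ hne k)
  rw [mul_comm Complex.I, mul_comm Complex.I, Complex.exp_ofReal_mul_I_re,
    Complex.exp_ofReal_mul_I_re, zero_mul, Real.cos_zero, one_div_mul_eq_div] at k2
  have k3 : |χ g / (n + 1)| < 1 := by rwa [abs_div, abs_of_pos (a := (n : ℝ) + 1) (by positivity)]
  have k4 := (Real.cos_eq_one_iff_of_lt_of_lt (by linarith [Real.pi_gt_three, (abs_lt.1 k3).1])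
    (by linarith [Real.pi_gt_three, (abs_lt.1 k3).2])).1 k2.symm
  exact hg (by simpa [show (n : ℝ) + 1 ≠ 0 by positivity] using k4)

/-- Bounded real functions. -/
def Bdd {H : Type*} (φ : H → ℝ) : Prop := ∃ c, ∀ z, |φ z| ≤ c

/-- There is a left invariant mean on the bounded real functions on `H`. -/
def Amenable (H : Type*) [Group H] : Prop :=
  ∃ m : (H → ℝ) → ℝ, (∀ φ ψ, Bdd φ → Bdd ψ → m (φ + ψ) = m φ + m ψ) ∧
    (∀ φ c, Bdd φ → (∀ z, φ z ≤ c) → m φ ≤ c) ∧ (∀ c, m (fun _ => c) = c) ∧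
    ∀ φ w, Bdd φ → m (fun z => φ (w * z)) = m φ

theorem amen (g : G) (l : G → ℝ) (hl : ∀ a b, l (a * b) ≤ l a + l b) (l0 : ∀ a, 0 ≤ l a)
    (hg : ∀ n : ℕ, (n : ℝ) ≤ l (g ^ n))
    (hm : Amenable (Subgroup.centralizer {g})) : ∃ χ : G → ℝ,
      (∀ a b, Commute g a → Commute g b → χ (a * b) = χ a + χ b) ∧
      (∀ a, Commute g a → χ a ≤ l a) ∧ χ g ≠ 0 := by
  obtain ⟨m, ma, m0, m1, mi⟩ := hm
  have hb : ∀ k, BddBelow (Set.range fun n : ℤ => l (k * g ^ n) - n) := fun k => ⟨-l k⁻¹, by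
    rintro _ ⟨n, rfl⟩
    have a1 := hl k⁻¹ (k * g ^ n)
    rw [inv_mul_cancel_left] at a1
    have a2 : (n : ℝ) ≤ l (g ^ n) := by
      rcases Int.eq_nat_or_neg n with ⟨j, rfl | rfl⟩
      · simpa using hg j
      · exact le_trans (by simp) (l0 _)
    show _ ≤ l _ - _
    linarith⟩
  set f : G → ℝ := fun k => ⨅ n : ℤ, (l (k * g ^ n) - n) with hf
  have f1 : ∀ k z, f (k * z) ≤ f z + l k := fun k z => by
    rw [← sub_le_iff_le_add]
    refine le_ciInf fun n => ?_
    have a1 := ciInf_le (hb (k * z)) n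
    have a2 := hl k (z * g ^ n)
    rw [← mul_assoc] at a2
    simp only [hf]
    linarith
  have f2 : ∀ k (j : ℤ), f (k * g ^ j) ≤ f k + j := fun k j => by
    rw [← sub_le_iff_le_add]
    refine le_ciInf fun n => ?_
    have a1 := ciInf_le (hb (k * g ^ j)) (n - j)
    rw [mul_assoc k _ (g ^ (n - j)), ← zpow_add, add_sub_cancel] at a1
    push_cast at a1
    simp only [hf]
    linarith
  have f3 : ∀ k, f (k * g) = f k + 1 := fun k => by
    have a1 := f2 k 1
    have a2 := f2 (k * g) (-1)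
    simp only [zpow_one, Int.cast_one, zpow_neg, mul_inv_cancel_right, Int.cast_neg] at a1 a2
    linarith
  let D : G → Subgroup.centralizer {g} → ℝ := fun k z => f (k * z) - f z
  have bD : ∀ k, Bdd (D k) := fun k => ⟨l k + l k⁻¹, fun z => by
    have a1 := f1 k z
    have a2 := f1 k⁻¹ (k * z)
    rw [inv_mul_cancel_left] at a2
    exact abs_le.2 ⟨by simp only [D]; linarith [l0 k], by simp only [D]; linarith [l0 k⁻¹]⟩⟩
  refine ⟨fun k => m (D k), fun a b _ hb' => ?_, fun a _ => m0 _ _ (bD a) fun z => ?_, ?_⟩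
  · set w : Subgroup.centralizer {g} := ⟨b, Subgroup.mem_centralizer_singleton_iff.2 hb'.symm⟩
      with hw
    have e : D (a * b) = (fun z => D a (w * z)) + D b := by
      funext z
      simp only [D, hw, Subgroup.coe_mul, mul_assoc, Pi.add_apply]
      ring
    show m _ = m _ + m _
    rw [e, ma _ _ ((bD a).imp fun c hc z => hc _) (bD b), mi _ _ (bD a)]
  · simp only [D]
    linarith [f1 a z]
  · have e : D g = fun _ => 1 := funext fun z => by
      simp only [D]
      rw [← Subgroup.mem_centralizer_singleton_iff.1 z.2, f3, add_sub_cancel_left]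
    show m _ ≠ 0
    rw [e, m1]
    exact one_ne_zero

/-- There is a subadditive function `l` on `G` such that either the centralizer of `g` has a real
character below `l` that does not vanish at `g`, or `g` is undistorted for `l` and its centralizer
is amenable. -/
def Crit {G : Type*} [Group G] (g : G) : Prop :=
  ∃ l : G → ℝ, (∀ a b, l (a * b) ≤ l a + l b) ∧
    ((∃ χ : G → ℝ, (∀ a b, Commute g a → Commute g b → χ (a * b) = χ a + χ b) ∧
        (∀ a, Commute g a → χ a ≤ l a) ∧ χ g ≠ 0) ∨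
      ((∀ a, 0 ≤ l a) ∧ (∀ n : ℕ, (n : ℝ) ≤ l (g ^ n)) ∧ Amenable (Subgroup.centralizer {g})))

theorem result {G : Type*} [Group G] (q : ℕ) (e : Fin q → Fin q → G → ℂ)
    (hs : ∀ i j, Summable fun h => ‖e i j h‖)
    (he : ∀ i j h, ∑ k, ∑' u, e i k u * e k j (u⁻¹ * h) = e i j h) :
    (∀ g : G, Crit g → ∑' x : {x : G // IsConj g x}, ∑ i, e i i x = 0) ∧
    ((∀ g : G, ¬IsOfFinOrder g → Crit g) →
      {C : ConjClasses G | ∃ g, IsOfFinOrder g ∧ ConjClasses.mk g = C}.Finite →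
      ∃ F : Set (ConjClasses G), F.Finite ∧
        (∀ g : G, ConjClasses.mk g ∈ F → IsOfFinOrder g) ∧
        ∀ g : G, ConjClasses.mk g ∉ F → ∑' x : {x : G // IsConj g x}, ∑ i, e i i x = 0) := by
  have k : ∀ g : G, Crit g → ∑' x : {x : G // IsConj g x}, ∑ i, e i i x = 0 := by
    rintro g ⟨l, hl, ⟨χ, h1, h2, h3⟩ | ⟨l0, hg, hm⟩⟩
    · exact main g l χ hl h1 h2 h3 q e hs he
    · obtain ⟨χ, h1, h2, h3⟩ := amen g l hl l0 hg hm
      exact main g l χ hl h1 h2 h3 q e hs he
  refine ⟨k, fun h hf => ⟨_, hf, ?_, fun g hg => k g (h g fun o => hg ⟨g, o, rfl⟩)⟩⟩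
  rintro g ⟨g', o, e'⟩
  obtain ⟨c, rfl⟩ := isConj_iff.1 (ConjClasses.mk_eq_mk_iff_isConj.1 e')
  exact (MulAut.conj c).toMonoidHom.isOfFinOrder o

end Vale.Agent.Results.P184.Centralizer
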